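import Vale.Agent.P126.Main

open scoped Pointwise
open Vale.Agent.P126

/-- Disproof of the duality conjecture for metric entropy (Q1). -/
theorem Vale.Agent.Results.P126.A_full.result :
    ¬ ∃ a b : ℝ, 1 ≤ a ∧ 1 ≤ b ∧ ∀ n : ℕ, 1 ≤ n →
      ∀ K L : Set (EuclideanSpace ℝ (Fin n)), IsSymmBody K → IsSymmBody L →
        1 / b * Real.log (coverNum (polarSet L) (a • polarSet K)) ≤ Real.log (coverNum K L) ∧
        Real.log (coverNum K L) ≤ b * Real.log (coverNum (polarSet L) (a⁻¹ • polarSet K)) := by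
  rintro ⟨a, b, ha, hb, h⟩
  obtain ⟨n, hn, K, hK, -, hlt⟩ := counterexample a b ha hb
  exact absurd (h n hn K (cube n) hK cube_body).2 (not_le.mpr hlt)
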