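import Vale.Agent.P126.Main

open scoped Pointwise
open Vale.Agent.P126

/-- For all constants `a, b ≥ 1` the right-hand inequality of Q1 fails, already when `L` is
the cube `[-1,1]ⁿ`. -/
theorem Vale.Agent.Results.P126.B_cube.result (a b : ℝ) (ha : 1 ≤ a) (hb : 1 ≤ b) :
    ∃ n : ℕ, 1 ≤ n ∧ ∃ K : Set (EuclideanSpace ℝ (Fin n)), IsSymmBody K ∧ IsSymmBody (cube n) ∧
      1 ≤ coverNum (polarSet (cube n)) (a⁻¹ • polarSet K) ∧
      b * Real.log (coverNum (polarSet (cube n)) (a⁻¹ • polarSet K)) <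
        Real.log (coverNum K (cube n)) := by
  obtain ⟨n, hn, K, hK, h1, hlt⟩ := counterexample a b ha hb
  exact ⟨n, hn, K, hK, cube_body, h1, hlt⟩
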